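import Mathlib

/-! T1: a smooth periodic plateau function.
ROUTE: chi x = Real.smoothTransition (1/2 - 2 * cos (2 * pi * x / a)).
On [0, a/6]: 0 <= 2 pi x / a <= pi/3, so cos >= cos (pi/3) = 1/2, argument <= -1/2 <= 0, value 0
(Real.smoothTransition.zero_of_nonpos).  On [a/3, 2a/3]: 2 pi / 3 <= 2 pi x / a <= 4 pi / 3, so
cos <= -1/2, argument >= 3/2 >= 1, value 1 (Real.smoothTransition.one_of_one_le).
Smoothness: Real.smoothTransition.contDiff.  Periodicity: cos_add_two_pi. -/

namespace Vale.Agent.Lib.P205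

open scoped ContDiff
open Real

theorem exists_plateau (a : ℝ) (ha : 0 < a) :
    ∃ χ : ℝ → ℝ, ContDiff ℝ ∞ χ ∧ Function.Periodic χ a ∧ (∀ x, 0 ≤ χ x) ∧ (∀ x, χ x ≤ 1) ∧
      (∀ x ∈ Set.Icc 0 (a / 6), χ x = 0) ∧ (∀ x ∈ Set.Icc (a / 3) (2 * a / 3), χ x = 1) := by
  have hane : a ≠ 0 := ha.ne'
  refine ⟨fun x => Real.smoothTransition (1 / 2 - 2 * cos (2 * π * x / a)), ?_, ?_, ?_, ?_, ?_, ?_⟩
  · refine Real.smoothTransition.contDiff.comp ?_
    refine contDiff_const.sub (contDiff_const.mul (Real.contDiff_cos.comp ?_))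
    exact (contDiff_const.mul contDiff_id).div_const _
  · intro x
    have h : 2 * π * (x + a) / a = 2 * π * x / a + 2 * π := by
      field_simp
    simp only [h, cos_add_two_pi]
  · intro x
    exact Real.smoothTransition.nonneg _
  · intro x
    exact Real.smoothTransition.le_one _
  · intro x hx
    apply Real.smoothTransition.zero_of_nonpos
    have h0 : 0 ≤ 2 * π * x / a := by
      have := hx.1
      positivity
    have h1 : 2 * π * x / a ≤ π / 3 := by
      rw [div_le_iff₀ ha]
      have := hx.2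
      nlinarith [Real.pi_pos]
    have hc : cos (π / 3) ≤ cos (2 * π * x / a) :=
      Real.cos_le_cos_of_nonneg_of_le_pi h0 (by linarith [Real.pi_pos]) h1
    rw [Real.cos_pi_div_three] at hc
    linarith
  · intro x hx
    apply Real.smoothTransition.one_of_one_le
    -- write theta = pi + u with |u| <= pi/3
    set u : ℝ := 2 * π * x / a - π with hu
    have hθ : 2 * π * x / a = u + π := by rw [hu]; ring
    have h1 : -(π / 3) ≤ u := by
      have : 2 * π / 3 ≤ 2 * π * x / a := by
        rw [le_div_iff₀ ha]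
        have := hx.1
        nlinarith [Real.pi_pos]
      rw [hu]; linarith
    have h2 : u ≤ π / 3 := by
      have : 2 * π * x / a ≤ 4 * π / 3 := by
        rw [div_le_iff₀ ha]
        have := hx.2
        nlinarith [Real.pi_pos]
      rw [hu]; linarith
    have hc : cos (π / 3) ≤ cos |u| :=
      Real.cos_le_cos_of_nonneg_of_le_pi (abs_nonneg u) (by linarith [Real.pi_pos])
        (abs_le.mpr ⟨h1, h2⟩)
    rw [Real.cos_pi_div_three, Real.cos_abs] at hc
    rw [hθ, Real.cos_add_pi]
    linarith

end Vale.Agent.Lib.P205
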