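import Vale.Agent.Lib.P205.Twist.Ints

/-! T4: four bounds for the parametric integrals.
Throughout 0 < s <= pi/4, 0 <= t <= pi/8, 0 <= chi <= 1, so the angle s + t chi x lies in
[s, 3 pi/8], inside (0, pi/2); all integrands are continuous and nonnegative.
(1) fInt_lower: restrict the integral to [0, a/6], where chi = 0 and the integrand is
    W t x * (cos s / sin s) >= wmin * (cos s / sin s)  (integral over [a/6, a] is >= 0;
    intervalIntegral.integral_add_adjacent_intervals, integral_mono_on, integral_nonneg).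
(2) fInt_upper: at s = pi/4 the angle is in [pi/4, 3 pi/8], so cos <= sin, quotient <= 1.
(3) at t = 0 the angle is the constant s, so fInt = J cos s / sin s, gInt = J sin s / cos s,
    J = integral of W 0, 0 <= J <= a wmax.
(4) gInt_lower: restrict to [a/3, 2a/3], where chi = 1, angle = s + pi/8 in [pi/8, 3 pi/8],
    tan (s + pi/8) >= tan (pi/8) >= pi/8 >= 3/8 (Real.lt_tan / Real.le_tan, pi > 3), length a/3. -/

namespace Vale.Agent.Lib.P205

open Real

variable {a : ℝ} {χ : ℝ → ℝ} {W : ℝ → ℝ → ℝ}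

private lemma sub_le_integral {F : ℝ → ℝ} (hF : Continuous F) {c d m : ℝ} (h0c : 0 ≤ c)
    (hcd : c ≤ d) (hda : d ≤ a) (hnn : ∀ x ∈ Set.Icc 0 a, 0 ≤ F x)
    (hm : ∀ x ∈ Set.Icc c d, m ≤ F x) : (d - c) * m ≤ ∫ x in (0 : ℝ)..a, F x := by
  have hi : ∀ p q : ℝ, IntervalIntegrable F MeasureTheory.volume p q :=
    fun p q => hF.intervalIntegrable p q
  have h1 : (∫ x in (0 : ℝ)..c, F x) + ∫ x in c..d, F x = ∫ x in (0 : ℝ)..d, F x :=
    intervalIntegral.integral_add_adjacent_intervals (hi _ _) (hi _ _)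
  have h2 : (∫ x in (0 : ℝ)..d, F x) + ∫ x in d..a, F x = ∫ x in (0 : ℝ)..a, F x :=
    intervalIntegral.integral_add_adjacent_intervals (hi _ _) (hi _ _)
  have h3 : 0 ≤ ∫ x in (0 : ℝ)..c, F x :=
    intervalIntegral.integral_nonneg h0c
      (fun u hu => hnn u ⟨hu.1, hu.2.trans (hcd.trans hda)⟩)
  have h4 : 0 ≤ ∫ x in d..a, F x :=
    intervalIntegral.integral_nonneg hda
      (fun u hu => hnn u ⟨(h0c.trans hcd).trans hu.1, hu.2⟩)
  have h5 : (∫ _x in c..d, m) ≤ ∫ x in c..d, F x :=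
    intervalIntegral.integral_mono_on hcd (continuous_const.intervalIntegrable _ _) (hi _ _) hm
  have h6 : (∫ _x in c..d, m) = (d - c) * m := by
    rw [intervalIntegral.integral_const, smul_eq_mul]
  linarith

private lemma contW (hW : Continuous (Function.uncurry W)) (t : ℝ) : Continuous (W t) := by
  have : W t = Function.uncurry W ∘ fun x => (t, x) := by
    funext x; rfl
  rw [this]
  exact hW.comp (continuous_const.prodMk continuous_id)

private lemma angle_bounds (h0 : ∀ x, 0 ≤ χ x) (h1 : ∀ x, χ x ≤ 1) {s t : ℝ}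
    (hs' : s ≤ π / 4) (ht : t ∈ Set.Icc 0 (π / 8)) (x : ℝ) :
    s ≤ s + t * χ x ∧ s + t * χ x ≤ 3 * π / 8 := by
  have e1 : 0 ≤ t * χ x := mul_nonneg ht.1 (h0 x)
  have e2 : t * χ x ≤ π / 8 * 1 := mul_le_mul ht.2 (h1 x) (h0 x) (by positivity)
  constructor <;> linarith

private lemma sin_cos_pos {θ s : ℝ} (hs : 0 < s) (h1 : s ≤ θ) (h2 : θ ≤ 3 * π / 8) :
    0 < sin θ ∧ 0 < cos θ := by
  have hpi := Real.pi_pos
  constructor
  · exact Real.sin_pos_of_pos_of_lt_pi (by linarith) (by linarith)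
  · exact Real.cos_pos_of_mem_Ioo ⟨by linarith, by linarith⟩

private lemma cont_f (hχ : Continuous χ) (h0 : ∀ x, 0 ≤ χ x) (h1 : ∀ x, χ x ≤ 1)
    (hW : Continuous (Function.uncurry W)) {s t : ℝ}
    (hs : 0 < s) (hs' : s ≤ π / 4) (ht : t ∈ Set.Icc 0 (π / 8)) :
    Continuous fun x => W t x * (cos (s + t * χ x) / sin (s + t * χ x)) := by
  have hθ : Continuous fun x => s + t * χ x := continuous_const.add (continuous_const.mul hχ)
  refine (contW hW t).mul ((Real.continuous_cos.comp hθ).div (Real.continuous_sin.comp hθ) ?_)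
  intro x
  obtain ⟨b1, b2⟩ := angle_bounds h0 h1 hs' ht x
  exact (sin_cos_pos hs b1 b2).1.ne'

private lemma cont_g (hχ : Continuous χ) (h0 : ∀ x, 0 ≤ χ x) (h1 : ∀ x, χ x ≤ 1)
    (hW : Continuous (Function.uncurry W)) {s t : ℝ}
    (hs : 0 < s) (hs' : s ≤ π / 4) (ht : t ∈ Set.Icc 0 (π / 8)) :
    Continuous fun x => W t x * (sin (s + t * χ x) / cos (s + t * χ x)) := by
  have hθ : Continuous fun x => s + t * χ x := continuous_const.add (continuous_const.mul hχ)
  refine (contW hW t).mul ((Real.continuous_sin.comp hθ).div (Real.continuous_cos.comp hθ) ?_)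
  intro x
  obtain ⟨b1, b2⟩ := angle_bounds h0 h1 hs' ht x
  exact (sin_cos_pos hs b1 b2).2.ne'

theorem fInt_lower (ha : 0 < a) (hχ : Continuous χ) (h0 : ∀ x, 0 ≤ χ x) (h1 : ∀ x, χ x ≤ 1)
    (hz : ∀ x ∈ Set.Icc 0 (a / 6), χ x = 0)
    (hW : Continuous (Function.uncurry W)) {wmin : ℝ} (hwmin : 0 < wmin) {s t : ℝ}
    (hs : 0 < s) (hs' : s ≤ π / 4) (ht : t ∈ Set.Icc 0 (π / 8)) (hWl : ∀ x, wmin ≤ W t x) :
    a / 6 * wmin * (cos s / sin s) ≤ fInt a χ W s t := by
  have key := sub_le_integral (a := a) (cont_f hχ h0 h1 hW hs hs' ht) (c := 0) (d := a / 6)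
    (m := wmin * (cos s / sin s)) le_rfl (by positivity) (by linarith) ?_ ?_
  · unfold fInt
    calc a / 6 * wmin * (cos s / sin s) = (a / 6 - 0) * (wmin * (cos s / sin s)) := by ring
      _ ≤ _ := key
  · intro x _
    obtain ⟨b1, b2⟩ := angle_bounds h0 h1 hs' ht x
    obtain ⟨p1, p2⟩ := sin_cos_pos hs b1 b2
    exact mul_nonneg (hwmin.le.trans (hWl x)) (div_nonneg p2.le p1.le)
  · intro x hx
    rw [hz x hx, mul_zero, add_zero]
    obtain ⟨p1, p2⟩ := sin_cos_pos hs le_rfl (by linarith [Real.pi_pos] : s ≤ 3 * π / 8)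
    exact mul_le_mul_of_nonneg_right (hWl x) (div_nonneg p2.le p1.le)

theorem fInt_upper (ha : 0 < a) (hχ : Continuous χ) (h0 : ∀ x, 0 ≤ χ x) (h1 : ∀ x, χ x ≤ 1)
    (hW : Continuous (Function.uncurry W)) {wmax : ℝ} {t : ℝ}
    (ht : t ∈ Set.Icc 0 (π / 8)) (hWl : ∀ x, 0 ≤ W t x) (hWu : ∀ x, W t x ≤ wmax) :
    fInt a χ W (π / 4) t ≤ a * wmax := by
  have hpi := Real.pi_pos
  have hs : 0 < π / 4 := by positivity
  have hc := cont_f hχ h0 h1 hW hs le_rfl ht
  have h5 : (∫ x in (0 : ℝ)..a, W t x * (cos (π / 4 + t * χ x) / sin (π / 4 + t * χ x)))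
      ≤ ∫ _x in (0 : ℝ)..a, wmax := by
    refine intervalIntegral.integral_mono_on ha.le (hc.intervalIntegrable _ _)
      (continuous_const.intervalIntegrable _ _) ?_
    intro x _
    obtain ⟨b1, b2⟩ := angle_bounds h0 h1 (le_refl (π / 4)) ht x
    obtain ⟨p1, p2⟩ := sin_cos_pos hs b1 b2
    have hq : cos (π / 4 + t * χ x) / sin (π / 4 + t * χ x) ≤ 1 := by
      rw [div_le_one p1]
      have c1 : cos (π / 4 + t * χ x) ≤ cos (π / 4) :=
        Real.cos_le_cos_of_nonneg_of_le_pi hs.le (by linarith) b1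
      have c2 : sin (π / 4) ≤ sin (π / 4 + t * χ x) :=
        Real.sin_le_sin_of_le_of_le_pi_div_two (by linarith) (by linarith) b1
      rw [Real.cos_pi_div_four] at c1
      rw [Real.sin_pi_div_four] at c2
      linarith
    calc W t x * (cos (π / 4 + t * χ x) / sin (π / 4 + t * χ x)) ≤ W t x * 1 :=
          mul_le_mul_of_nonneg_left hq (hWl x)
      _ ≤ wmax := by rw [mul_one]; exact hWu x
  have h6 : (∫ _x in (0 : ℝ)..a, wmax) = a * wmax := by
    rw [intervalIntegral.integral_const, smul_eq_mul, sub_zero]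
  unfold fInt
  linarith

theorem fInt_mul_gInt_zero (ha : 0 < a) (hW : Continuous (Function.uncurry W)) {wmax : ℝ} {s : ℝ}
    (hs : 0 < s) (hs' : s ≤ π / 4) (hWl : ∀ x, 0 ≤ W 0 x) (hWu : ∀ x, W 0 x ≤ wmax) :
    fInt a χ W s 0 * gInt a χ W s 0 ≤ (a * wmax) ^ 2 := by
  obtain ⟨p1, p2⟩ := sin_cos_pos hs le_rfl (by linarith [Real.pi_pos] : s ≤ 3 * π / 8)
  have hc := contW hW 0
  have hf : fInt a χ W s 0 = (∫ x in (0 : ℝ)..a, W 0 x) * (cos s / sin s) := by
    unfold fInt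
    simp only [zero_mul, add_zero]
    rw [intervalIntegral.integral_mul_const]
  have hg : gInt a χ W s 0 = (∫ x in (0 : ℝ)..a, W 0 x) * (sin s / cos s) := by
    unfold gInt
    simp only [zero_mul, add_zero]
    rw [intervalIntegral.integral_mul_const]
  have hJ0 : 0 ≤ ∫ x in (0 : ℝ)..a, W 0 x :=
    intervalIntegral.integral_nonneg ha.le (fun u _ => hWl u)
  have hJ1 : (∫ x in (0 : ℝ)..a, W 0 x) ≤ a * wmax := by
    have h5 : (∫ x in (0 : ℝ)..a, W 0 x) ≤ ∫ _x in (0 : ℝ)..a, wmax :=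
      intervalIntegral.integral_mono_on ha.le (hc.intervalIntegrable _ _)
        (continuous_const.intervalIntegrable _ _) (fun x _ => hWu x)
    rw [intervalIntegral.integral_const, smul_eq_mul, sub_zero] at h5
    exact h5
  rw [hf, hg]
  have hq : cos s / sin s * (sin s / cos s) = 1 := by
    field_simp
  calc (∫ x in (0 : ℝ)..a, W 0 x) * (cos s / sin s) * ((∫ x in (0 : ℝ)..a, W 0 x) * (sin s / cos s))
      = (∫ x in (0 : ℝ)..a, W 0 x) ^ 2 * (cos s / sin s * (sin s / cos s)) := by ring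
    _ = (∫ x in (0 : ℝ)..a, W 0 x) ^ 2 := by rw [hq, mul_one]
    _ ≤ (a * wmax) ^ 2 := pow_le_pow_left₀ hJ0 hJ1 2

theorem gInt_lower (ha : 0 < a) (hχ : Continuous χ) (h0 : ∀ x, 0 ≤ χ x) (h1 : ∀ x, χ x ≤ 1)
    (ho : ∀ x ∈ Set.Icc (a / 3) (2 * a / 3), χ x = 1)
    (hW : Continuous (Function.uncurry W)) {wmin : ℝ} (hwmin : 0 < wmin) {s : ℝ}
    (hs : 0 < s) (hs' : s ≤ π / 4) (hWl : ∀ x, wmin ≤ W (π / 8) x) :
    a * wmin / 8 ≤ gInt a χ W s (π / 8) := by
  have hpi := Real.pi_pos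
  have hpi3 := Real.pi_gt_three
  have ht : π / 8 ∈ Set.Icc 0 (π / 8) := ⟨by positivity, le_rfl⟩
  have key := sub_le_integral (a := a) (cont_g hχ h0 h1 hW hs hs' ht) (c := a / 3)
    (d := 2 * a / 3) (m := wmin * (3 / 8)) (by positivity) (by linarith) (by linarith) ?_ ?_
  · unfold gInt
    calc a * wmin / 8 = (2 * a / 3 - a / 3) * (wmin * (3 / 8)) := by ring
      _ ≤ _ := key
  · intro x _
    obtain ⟨b1, b2⟩ := angle_bounds h0 h1 hs' ht x
    obtain ⟨p1, p2⟩ := sin_cos_pos hs b1 b2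
    exact mul_nonneg (hwmin.le.trans (hWl x)) (div_nonneg p1.le p2.le)
  · intro x hx
    rw [ho x hx, mul_one]
    have hlt : s + π / 8 < tan (s + π / 8) := Real.lt_tan (by linarith) (by linarith)
    rw [Real.tan_eq_sin_div_cos] at hlt
    have hq : (3 : ℝ) / 8 ≤ sin (s + π / 8) / cos (s + π / 8) := by linarith
    exact mul_le_mul (hWl x) hq (by norm_num) (hwmin.le.trans (hWl x))

end Vale.Agent.Lib.P205
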