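import Vale.Agent.Lib.P205.Twist.Ints

/-! T3: continuity and monotonicity of the parametric integrals.
On the rectangle s in [s0, pi/4], t in [0, pi/8] and for 0 <= chi <= 1 the angle s + t chi x lies in
[s0, 3 pi/8], inside (0, pi/2), so sin and cos of it are positive.
ROUTE for continuity: clamp the parameters (Set.projIcc, or max/min) to get a globally continuous
integrand and use intervalIntegral.continuous_parametric_intervalIntegral_of_continuous, then
restrict; or use continuousOn versions / dominated convergence directly.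
ROUTE for monotonicity: cos/sin = cot is strictly decreasing on (0,pi) (e.g. from
sin (y - x) = sin y cos x - cos y sin x > 0); the integrand is continuous and strictly smaller at
every point; intervalIntegral.integral_lt_integral_of_continuousOn_of_le_of_exists_lt. -/

namespace Vale.Agent.Lib.P205

open Real

variable {a : ℝ} {χ : ℝ → ℝ} {W : ℝ → ℝ → ℝ}

private lemma angle_mem (h0 : ∀ x, 0 ≤ χ x) (h1 : ∀ x, χ x ≤ 1) {s0 s t : ℝ}
    (hs : s ∈ Set.Icc s0 (π / 4)) (ht : t ∈ Set.Icc 0 (π / 8)) (x : ℝ) :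
    s + t * χ x ∈ Set.Icc s0 (3 * π / 8) := by
  constructor
  · have := mul_nonneg ht.1 (h0 x)
    linarith [hs.1]
  · have h2 : t * χ x ≤ π / 8 * 1 := mul_le_mul ht.2 (h1 x) (h0 x) (by positivity)
    linarith [hs.2]

private lemma sin_pos_of_angle {s0 θ : ℝ} (hs0 : 0 < s0) (h : θ ∈ Set.Icc s0 (3 * π / 8)) :
    0 < sin θ := by
  apply sin_pos_of_pos_of_lt_pi
  · linarith [h.1]
  · have := pi_pos
    linarith [h.2]

private lemma cos_pos_of_angle {s0 θ : ℝ} (hs0 : 0 < s0) (h : θ ∈ Set.Icc s0 (3 * π / 8)) :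
    0 < cos θ := by
  apply cos_pos_of_mem_Ioo
  constructor
  · have := pi_pos
    linarith [h.1]
  · have := pi_pos
    linarith [h.2]

private lemma continuousOn_aux (hχ : Continuous χ) (h0 : ∀ x, 0 ≤ χ x) (h1 : ∀ x, χ x ≤ 1)
    (hW : Continuous (Function.uncurry W)) {s0 : ℝ} (num den : ℝ → ℝ) (hnum : Continuous num)
    (hden : Continuous den) (hne : ∀ θ ∈ Set.Icc s0 (3 * π / 8), den θ ≠ 0) :
    ContinuousOn (Function.uncurry (fun s t => ∫ x in (0 : ℝ)..a,
      W t x * (num (s + t * χ x) / den (s + t * χ x))))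
      (Set.Icc s0 (π / 4) ×ˢ Set.Icc 0 (π / 8)) := by
  by_cases hs : s0 ≤ π / 4
  · set cs : ℝ → ℝ := fun s => max s0 (min s (π / 4)) with hcs
    set ct : ℝ → ℝ := fun t => max 0 (min t (π / 8)) with hct
    have hcsc : Continuous cs := by
      exact continuous_const.max (continuous_id.min continuous_const)
    have hctc : Continuous ct := by
      exact continuous_const.max (continuous_id.min continuous_const)
    have hcsm : ∀ s, cs s ∈ Set.Icc s0 (π / 4) := fun s =>
      ⟨le_max_left _ _, max_le hs (min_le_right _ _)⟩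
    have hctm : ∀ t, ct t ∈ Set.Icc 0 (π / 8) := fun t =>
      ⟨le_max_left _ _, max_le (by positivity) (min_le_right _ _)⟩
    have hang : Continuous (fun q : (ℝ × ℝ) × ℝ => cs q.1.1 + ct q.1.2 * χ q.2) := by
      exact (hcsc.comp (continuous_fst.comp continuous_fst)).add
        ((hctc.comp (continuous_snd.comp continuous_fst)).mul (hχ.comp continuous_snd))
    have hG : Continuous (Function.uncurry (fun (p : ℝ × ℝ) (x : ℝ) =>
        W (ct p.2) x * (num (cs p.1 + ct p.2 * χ x) / den (cs p.1 + ct p.2 * χ x)))) := by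
      have hW' : Continuous (fun q : (ℝ × ℝ) × ℝ => W (ct q.1.2) q.2) :=
        hW.comp ((hctc.comp (continuous_snd.comp continuous_fst)).prodMk continuous_snd)
      exact hW'.mul ((hnum.comp hang).div (hden.comp hang)
        (fun q => hne _ (angle_mem h0 h1 (hcsm q.1.1) (hctm q.1.2) q.2)))
    have hI := intervalIntegral.continuous_parametric_intervalIntegral_of_continuous'
      (μ := MeasureTheory.volume) hG 0 a
    refine hI.continuousOn.congr ?_
    rintro ⟨s, t⟩ ⟨hs', ht'⟩
    have e1 : cs s = s := by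
      simp only [hcs]
      rw [min_eq_left hs'.2, max_eq_right hs'.1]
    have e2 : ct t = t := by
      simp only [hct]
      rw [min_eq_left ht'.2, max_eq_right ht'.1]
    simp only [Function.uncurry, e1, e2]
  · have : Set.Icc s0 (π / 4) = ∅ := Set.Icc_eq_empty hs
    rw [this, Set.empty_prod]
    exact continuousOn_empty _

theorem continuousOn_fInt (hχ : Continuous χ) (h0 : ∀ x, 0 ≤ χ x) (h1 : ∀ x, χ x ≤ 1)
    (hW : Continuous (Function.uncurry W)) {s0 : ℝ} (hs0 : 0 < s0) :
    ContinuousOn (Function.uncurry (fInt a χ W)) (Set.Icc s0 (π / 4) ×ˢ Set.Icc 0 (π / 8)) := by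
  exact continuousOn_aux hχ h0 h1 hW cos sin continuous_cos continuous_sin
    (fun θ hθ => (sin_pos_of_angle hs0 hθ).ne')

theorem continuousOn_gInt (hχ : Continuous χ) (h0 : ∀ x, 0 ≤ χ x) (h1 : ∀ x, χ x ≤ 1)
    (hW : Continuous (Function.uncurry W)) {s0 : ℝ} (hs0 : 0 < s0) :
    ContinuousOn (Function.uncurry (gInt a χ W)) (Set.Icc s0 (π / 4) ×ˢ Set.Icc 0 (π / 8)) := by
  exact continuousOn_aux hχ h0 h1 hW sin cos continuous_sin continuous_cos
    (fun θ hθ => (cos_pos_of_angle hs0 hθ).ne')

theorem strictAntiOn_fInt (ha : 0 < a) (hχ : Continuous χ) (h0 : ∀ x, 0 ≤ χ x) (h1 : ∀ x, χ x ≤ 1)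
    (hW : Continuous (Function.uncurry W)) {s0 : ℝ} (hs0 : 0 < s0) {t : ℝ}
    (ht : t ∈ Set.Icc 0 (π / 8)) (hpos : ∀ x, 0 < W t x) :
    StrictAntiOn (fun s => fInt a χ W s t) (Set.Icc s0 (π / 4)) := by
  intro s₁ hs₁ s₂ hs₂ h12
  have hWt : Continuous (W t) := hW.comp (continuous_const.prodMk continuous_id)
  have hcont : ∀ s ∈ Set.Icc s0 (π / 4), Continuous (fun x =>
      W t x * (cos (s + t * χ x) / sin (s + t * χ x))) := by
    intro s hs
    have hang : Continuous (fun x => s + t * χ x) := continuous_const.add (continuous_const.mul hχ)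
    exact hWt.mul ((continuous_cos.comp hang).div (continuous_sin.comp hang)
      (fun x => (sin_pos_of_angle hs0 (angle_mem h0 h1 hs ht x)).ne'))
  have hlt : ∀ x, W t x * (cos (s₂ + t * χ x) / sin (s₂ + t * χ x))
      < W t x * (cos (s₁ + t * χ x) / sin (s₁ + t * χ x)) := by
    intro x
    apply mul_lt_mul_of_pos_left _ (hpos x)
    have hp1 := sin_pos_of_angle hs0 (angle_mem h0 h1 hs₁ ht x)
    have hp2 := sin_pos_of_angle hs0 (angle_mem h0 h1 hs₂ ht x)
    rw [div_lt_div_iff₀ hp2 hp1]
    have hd : 0 < sin ((s₂ + t * χ x) - (s₁ + t * χ x)) := by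
      apply sin_pos_of_pos_of_lt_pi
      · linarith
      · have := pi_pos
        have e : (s₂ + t * χ x) - (s₁ + t * χ x) = s₂ - s₁ := by ring
        rw [e]
        linarith [hs₂.2, hs₁.1]
    rw [sin_sub] at hd
    linarith
  show fInt a χ W s₂ t < fInt a χ W s₁ t
  unfold fInt
  apply intervalIntegral.integral_lt_integral_of_continuousOn_of_le_of_exists_lt ha
    (hcont s₂ hs₂).continuousOn (hcont s₁ hs₁).continuousOn
  · intro x _
    exact (hlt x).le
  · exact ⟨0, ⟨le_refl _, ha.le⟩, hlt 0⟩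

end Vale.Agent.Lib.P205
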