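import Vale.Agent.Lib.P205.Twist.Nested
import Vale.Agent.Lib.P205.Twist.Cont
import Vale.Agent.Lib.P205.Twist.Bounds

/-! Solving the two closing conditions. -/

namespace Vale.Agent.Lib.P205

open Real

theorem solve (a : ℝ) (ha : 0 < a) (χ : ℝ → ℝ) (hχ : Continuous χ) (h0 : ∀ x, 0 ≤ χ x)
    (h1 : ∀ x, χ x ≤ 1) (hz : ∀ x ∈ Set.Icc 0 (a / 6), χ x = 0)
    (ho : ∀ x ∈ Set.Icc (a / 3) (2 * a / 3), χ x = 1)
    (W : ℝ → ℝ → ℝ) (hW : Continuous (Function.uncurry W)) (wmin wmax : ℝ) (hwmin : 0 < wmin)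
    (hWl : ∀ t ∈ Set.Icc 0 (π / 8), ∀ x, wmin ≤ W t x)
    (hWu : ∀ t ∈ Set.Icc 0 (π / 8), ∀ x, W t x ≤ wmax)
    (α β : ℝ) (hα : a * wmax < α) (hβ1 : (a * wmax) ^ 2 / α < β) (hβ2 : β < a * wmin / 8) :
    ∃ s t, 0 < s ∧ s ≤ π / 4 ∧ 0 ≤ t ∧ t ≤ π / 8 ∧ fInt a χ W s t = α ∧ gInt a χ W s t = β := by
  have hpi : 0 < π := pi_pos
  have h0mem : (0 : ℝ) ∈ Set.Icc 0 (π / 8) := ⟨le_refl _, by positivity⟩
  have h8mem : (π / 8) ∈ Set.Icc 0 (π / 8) := ⟨by positivity, le_refl _⟩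
  have hwmm : wmin ≤ wmax := le_trans (hWl 0 h0mem 0) (hWu 0 h0mem 0)
  have hwmax : 0 < wmax := lt_of_lt_of_le hwmin hwmm
  have hαpos : 0 < α := lt_trans (by positivity) hα
  -- the left end point
  set c : ℝ := a * wmin / (12 * α) with hc
  have hcpos : 0 < c := by positivity
  have hc1 : c < 1 / 12 := by
    rw [hc, div_lt_iff₀ (by positivity)]
    have : a * wmin ≤ a * wmax := mul_le_mul_of_nonneg_left hwmm ha.le
    nlinarith
  set s0 : ℝ := arctan c with hs0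
  have hs0pos : 0 < s0 := by
    rw [hs0, ← arctan_zero]; exact arctan_strictMono hcpos
  have hs0lt : s0 < π / 4 := by
    rw [hs0, ← arctan_one]; exact arctan_strictMono (by linarith)
  have hcot : cos s0 / sin s0 = 1 / c := by
    have h1 : tan s0 = c := tan_arctan c
    rw [tan_eq_sin_div_cos] at h1
    have hcos : cos s0 ≠ 0 := (cos_arctan_pos c).ne'
    have hsin : sin s0 = c * cos s0 := by
      field_simp at h1; linarith
    rw [hsin]; field_simp
  obtain ⟨s, hs, t, ht, hf, hg⟩ := nested_ivt (f := fInt a χ W) (g := gInt a χ W) (s0 := s0)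
    (s1 := π / 4) (t1 := π / 8) (α := α) (β := β) hs0lt (by positivity)
    (continuousOn_fInt hχ h0 h1 hW hs0pos) (continuousOn_gInt hχ h0 h1 hW hs0pos)
    (fun t ht => strictAntiOn_fInt ha hχ h0 h1 hW hs0pos ht
      (fun x => lt_of_lt_of_le hwmin (hWl t ht x)))
    (fun t ht => by
      have := fInt_lower ha hχ h0 h1 hz hW hwmin hs0pos hs0lt.le ht (hWl t ht)
      rw [hcot] at this
      refine lt_of_lt_of_le ?_ this
      rw [hc]
      field_simp
      linarith)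
    (fun t ht => lt_of_le_of_lt (fInt_upper ha hχ h0 h1 hW ht
      (fun x => le_trans hwmin.le (hWl t ht x)) (hWu t ht)) hα)
    (fun s hs hfs => by
      have := fInt_mul_gInt_zero (χ := χ) ha hW (lt_of_lt_of_le hs0pos hs.1) hs.2
        (fun x => le_trans hwmin.le (hWl 0 h0mem x)) (hWu 0 h0mem)
      rw [hfs] at this
      refine lt_of_le_of_lt ?_ hβ1
      rw [le_div_iff₀ hαpos]
      linarith)
    (fun s hs _ => lt_of_lt_of_le hβ2
      (gInt_lower ha hχ h0 h1 ho hW hwmin (lt_of_lt_of_le hs0pos hs.1) hs.2 (hWl _ h8mem)))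
  exact ⟨s, t, lt_of_lt_of_le hs0pos hs.1, hs.2, ht.1, ht.2, hf, hg⟩

end Vale.Agent.Lib.P205
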