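import Vale.Agent.Lib.P205.Twist.Helpers
import Vale.Agent.Lib.P205.Twist.Plateau
import Vale.Agent.Lib.P205.Twist.Solve

/-! Choice of the frequency and of the two parameters. -/

open scoped ContDiff
open Real

namespace Vale.Agent.Lib.P205

/-- the square of the remaining speed -/
noncomputable def Rad (E₁ G D X : ℝ → ℝ) (κ t x : ℝ) : ℝ :=
  (E₁ x - ((D x) ^ 2 + G x * (t * X x) ^ 2) / κ ^ 2) / G x

theorem Rad_low {E₁ G D X : ℝ → ℝ} {κ t x C₁ : ℝ} (hG0 : 0 < G x) (hE0 : 0 < E₁ x)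
    (h1 : ((D x) ^ 2 + G x * (X x) ^ 2) / E₁ x ≤ C₁) (hκ : 0 < κ) (hκC : 2 * C₁ < κ ^ 2)
    (ht : t ∈ Set.Icc 0 (π / 8)) : E₁ x / G x / 2 ≤ Rad E₁ G D X κ t x := by
  have hpi8 : π / 8 < 1 := by have := pi_lt_four; linarith
  rw [div_le_iff₀ hE0] at h1
  have ht2 : (t * X x) ^ 2 ≤ (X x) ^ 2 := by
    rw [mul_pow]
    have : t ^ 2 ≤ 1 := by nlinarith [ht.1, ht.2]
    nlinarith [sq_nonneg (X x)]
  have h2 : (D x) ^ 2 + G x * (t * X x) ^ 2 ≤ C₁ * E₁ x := by nlinarith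
  have h3 : ((D x) ^ 2 + G x * (t * X x) ^ 2) / κ ^ 2 ≤ E₁ x / 2 := by
    rw [div_le_iff₀ (by positivity)]
    nlinarith
  unfold Rad
  rw [div_div, div_le_div_iff₀ (by positivity) hG0]
  nlinarith

theorem Rad_up {E₁ G D X : ℝ → ℝ} {κ t x : ℝ} (hG0 : 0 < G x) :
    Rad E₁ G D X κ t x ≤ E₁ x / G x := by
  unfold Rad
  apply div_le_div_of_nonneg_right _ hG0.le
  have : 0 ≤ ((D x) ^ 2 + G x * (t * X x) ^ 2) / κ ^ 2 := by positivity
  linarith

theorem Rad_continuous {E₁ G D X : ℝ → ℝ} {κ : ℝ} (hE : Continuous E₁) (hG : Continuous G)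
    (hD : Continuous D) (hX : Continuous X) (hG0 : ∀ x, 0 < G x) :
    Continuous (Function.uncurry (Rad E₁ G D X κ)) := by
  have c1 : Continuous fun q : ℝ × ℝ => E₁ q.2 := hE.comp continuous_snd
  have c2 : Continuous fun q : ℝ × ℝ => D q.2 := hD.comp continuous_snd
  have c3 : Continuous fun q : ℝ × ℝ => G q.2 := hG.comp continuous_snd
  have c4 : Continuous fun q : ℝ × ℝ => X q.2 := hX.comp continuous_snd
  exact (c1.sub (((c2.pow 2).add (c3.mul ((continuous_fst.mul c4).pow 2))).div_const _)).div c3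
    fun q => (hG0 q.2).ne'

theorem Rad_contDiff {E₁ G D X : ℝ → ℝ} {κ t : ℝ} (hE : ContDiff ℝ ∞ E₁) (hG : ContDiff ℝ ∞ G)
    (hD : ContDiff ℝ ∞ D) (hX : ContDiff ℝ ∞ X) (hG0 : ∀ x, 0 < G x) :
    ContDiff ℝ ∞ (Rad E₁ G D X κ t) :=
  (hE.sub (((hD.pow 2).add (hG.mul ((contDiff_const.mul hX).pow 2))).div_const _)).div hG
    fun x => (hG0 x).ne'

theorem Rad_periodic {E₁ G D X : ℝ → ℝ} {κ t a : ℝ} (hE : Function.Periodic E₁ a)
    (hG : Function.Periodic G a) (hD : Function.Periodic D a) (hX : Function.Periodic X a) :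
    Function.Periodic (Rad E₁ G D X κ t) a := fun x => by
  simp only [Rad, hE x, hG x, hD x, hX x]

/-- choice of the frequency -/
theorem exists_freq (b c₁ c₂ : ℝ) (hb : 0 < b) (hc₂ : 0 < c₂) :
    ∃ n : ℕ, 0 < n ∧ 2 * c₁ < (2 * π * n / b) ^ 2 ∧ b / n < c₂ := by
  have hpi : 0 < π := pi_pos
  obtain ⟨n, hn⟩ := exists_nat_gt (max (b * (2 * (|c₁| + 1)) / (2 * π)) (b / c₂))
  have hn1 : b * (2 * (|c₁| + 1)) / (2 * π) < n := lt_of_le_of_lt (le_max_left _ _) hn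
  have hn2 : b / c₂ < n := lt_of_le_of_lt (le_max_right _ _) hn
  have hnpos : (0 : ℝ) < n := lt_of_le_of_lt (by positivity) hn2
  refine ⟨n, by exact_mod_cast hnpos, ?_, ?_⟩
  · have hκ1 : 2 * (|c₁| + 1) < 2 * π * n / b := by
      rw [lt_div_iff₀ hb]
      rw [div_lt_iff₀ (by positivity)] at hn1
      linarith
    have h1 : c₁ ≤ |c₁| := le_abs_self c₁
    have h2 : 0 ≤ |c₁| := abs_nonneg c₁
    nlinarith
  · rw [div_lt_iff₀ hnpos]
    rw [div_lt_iff₀ hc₂] at hn2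
    linarith

theorem exists_params (a b T : ℝ) (ha : 0 < a) (hb : 0 < b) (E₁ G D : ℝ → ℝ)
    (hE : Continuous E₁) (hG : Continuous G) (hD : Continuous D)
    (hE0 : ∀ x, 0 < E₁ x) (hG0 : ∀ x, 0 < G x)
    (hEper : Function.Periodic E₁ a) (hGper : Function.Periodic G a)
    (hDper : Function.Periodic D a) :
    ∃ (n : ℕ) (χ : ℝ → ℝ) (s t : ℝ) (z₁ z₂ : ℤ), 0 < n ∧ ContDiff ℝ ∞ χ ∧ Function.Periodic χ a ∧
      (∀ x, 0 < s + t * χ x) ∧ (∀ x, s + t * χ x < π / 2) ∧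
      (∀ x, 0 < Rad E₁ G D (deriv χ) (2 * π * n / b) t x) ∧
      fInt a χ (fun t x => √(Rad E₁ G D (deriv χ) (2 * π * n / b) t x)) s t = -T + b / n * z₁ ∧
      gInt a χ (fun t x => √(Rad E₁ G D (deriv χ) (2 * π * n / b) t x)) s t = T + b / n * z₂ := by
  have hpi : 0 < π := pi_pos
  obtain ⟨χ, hχ, hχper, hχ0, hχ1, hχz, hχo⟩ := exists_plateau a ha
  have hχ' : ContDiff ℝ ∞ (deriv χ) := (contDiff_infty_iff_deriv.1 hχ).2
  have hχ'per := periodic_deriv hχper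
  obtain ⟨qmin, hqmin, hqlow⟩ := exists_pos_lower_bound (q := fun x => E₁ x / G x) ha.ne'
    (hE.div hG fun x => (hG0 x).ne')
    (fun x => by simp only [hEper x, hGper x]) (fun x => div_pos (hE0 x) (hG0 x))
  obtain ⟨qmax, hqup⟩ := exists_bound (q := fun x => E₁ x / G x) ha.ne'
    (hE.div hG fun x => (hG0 x).ne') (fun x => by simp only [hEper x, hGper x])
  obtain ⟨C₁, hC₁⟩ := exists_bound
    (q := fun x => ((D x) ^ 2 + G x * (deriv χ x) ^ 2) / E₁ x) ha.ne'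
    (((hD.pow 2).add (hG.mul (hχ'.continuous.pow 2))).div hE fun x => (hE0 x).ne')
    (fun x => by simp only [hDper x, hχ'per x, hEper x, hGper x])
  have hwmin : 0 < √(qmin / 2) := Real.sqrt_pos.2 (by positivity)
  obtain ⟨n, hn0, hκC, hΛ16⟩ := exists_freq b C₁ (a * √(qmin / 2) / 16) hb (by positivity)
  have hnpos : (0 : ℝ) < n := by exact_mod_cast hn0
  have hκpos : 0 < 2 * π * n / b := by positivity
  have hΛpos : 0 < b / n := by positivity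
  have hRadlow : ∀ t ∈ Set.Icc 0 (π / 8), ∀ x,
      E₁ x / G x / 2 ≤ Rad E₁ G D (deriv χ) (2 * π * n / b) t x :=
    fun t ht x => Rad_low (hG0 x) (hE0 x) (hC₁ x) hκpos hκC ht
  have hWcont : Continuous (Function.uncurry
      (fun t x => √(Rad E₁ G D (deriv χ) (2 * π * n / b) t x))) :=
    Real.continuous_sqrt.comp (Rad_continuous hE hG hD hχ'.continuous hG0)
  have hWl : ∀ t ∈ Set.Icc 0 (π / 8), ∀ x,
      √(qmin / 2) ≤ √(Rad E₁ G D (deriv χ) (2 * π * n / b) t x) := by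
    intro t ht x
    apply Real.sqrt_le_sqrt
    have h1 := hRadlow t ht x
    have h2 : qmin ≤ E₁ x / G x := hqlow x
    linarith
  have hWu : ∀ t ∈ Set.Icc 0 (π / 8), ∀ x,
      √(Rad E₁ G D (deriv χ) (2 * π * n / b) t x) ≤ √qmax := by
    intro t _ x
    apply Real.sqrt_le_sqrt
    exact le_trans (Rad_up (hG0 x)) (hqup x)
  have h0mem : (0 : ℝ) ∈ Set.Icc 0 (π / 8) := ⟨le_refl _, by positivity⟩
  have hwmax : 0 < √qmax := lt_of_lt_of_le hwmin (le_trans (hWl 0 h0mem 0) (hWu 0 h0mem 0))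
  obtain ⟨z₂, hz₂a, hz₂b⟩ := lattice_point (b / n) T (a * √(qmin / 2) / 16) hΛpos
  obtain ⟨z₁, hz₁a, _⟩ := lattice_point (b / n) (-T)
    (max (a * √qmax) (16 * a * √qmax ^ 2 / √(qmin / 2))) hΛpos
  have hα1 : a * √qmax < -T + b / n * z₁ := lt_of_le_of_lt (le_max_left _ _) hz₁a
  have hα2 : 16 * a * √qmax ^ 2 / √(qmin / 2) < -T + b / n * z₁ :=
    lt_of_le_of_lt (le_max_right _ _) hz₁a
  have hαpos : 0 < -T + b / n * z₁ := lt_trans (by positivity) hα1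
  have hβ1 : (a * √qmax) ^ 2 / (-T + b / n * z₁) < T + b / n * z₂ := by
    refine lt_trans ?_ hz₂a
    rw [div_lt_iff₀ hαpos]
    rw [div_lt_iff₀ hwmin] at hα2
    nlinarith
  have hβ2 : T + b / n * z₂ < a * √(qmin / 2) / 8 := by linarith
  obtain ⟨s, t, hs0, hs1, ht0, ht1, hfs, hgs⟩ := solve a ha χ hχ.continuous hχ0 hχ1 hχz hχo
    (fun t x => √(Rad E₁ G D (deriv χ) (2 * π * n / b) t x)) hWcont
    (√(qmin / 2)) (√qmax) hwmin hWl hWu _ _ hα1 hβ1 hβ2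
  refine ⟨n, χ, s, t, z₁, z₂, hn0, hχ, hχper, ?_, ?_, ?_, hfs, hgs⟩
  · intro x
    have := mul_nonneg ht0 (hχ0 x)
    linarith
  · intro x
    have : t * χ x ≤ t * 1 := mul_le_mul_of_nonneg_left (hχ1 x) ht0
    linarith
  · intro x
    refine lt_of_lt_of_le ?_ (hRadlow t ⟨ht0, ht1⟩ x)
    have := hE0 x
    have := hG0 x
    positivity

end Vale.Agent.Lib.P205
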