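import Vale.Agent.Lib.P205.Twist.Data
import Vale.Agent.Lib.P205.Twist.Params

/-! All circle-invariant metrics on all tori immerse isometrically in `ℝ⁴`. -/

open scoped ContDiff InnerProductSpace
open Real

namespace Vale.Agent.Lib.P205

theorem twisted_main (a b τ : ℝ) (ha : 0 < a) (hb : 0 < b) (E M G : ℝ → ℝ)
    (hE : ContDiff ℝ ∞ E) (hM : ContDiff ℝ ∞ M) (hG : ContDiff ℝ ∞ G)
    (hGpos : ∀ x, 0 < G x) (hdet : ∀ x, 0 < E x * G x - M x ^ 2)
    (hEper : Function.Periodic E a) (hMper : Function.Periodic M a)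
    (hGper : Function.Periodic G a) :
    ∃ F : ℝ × ℝ → EuclideanSpace ℝ (Fin 4), ContDiff ℝ ∞ F ∧
      (∀ p : ℝ × ℝ, F (p.1 + a, p.2 + τ) = F p) ∧ (∀ p : ℝ × ℝ, F (p.1, p.2 + b) = F p) ∧
      ∀ (p v w : ℝ × ℝ), ⟪fderiv ℝ F p v, fderiv ℝ F p w⟫_ℝ
        = E p.1 * v.1 * w.1 + M p.1 * (v.1 * w.2 + v.2 * w.1) + G p.1 * v.2 * w.2 := by
  have hpi : 0 < π := pi_pos
  have hρ : ContDiff ℝ ∞ fun x => √(G x) := hG.sqrt fun x => (hGpos x).ne'
  have hρsq : ∀ x, √(G x) ^ 2 = G x := fun x => Real.sq_sqrt (hGpos x).le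
  have hρper : Function.Periodic (fun x => √(G x)) a := fun x => by simp only [hGper x]
  have hρ' : ContDiff ℝ ∞ (deriv fun x => √(G x)) := (contDiff_infty_iff_deriv.1 hρ).2
  have hρ'per := periodic_deriv hρper
  have hE₁ : ContDiff ℝ ∞ fun x => E x - M x ^ 2 / G x :=
    hE.sub ((hM.pow 2).div hG fun x => (hGpos x).ne')
  have hE₁pos : ∀ x, 0 < E x - M x ^ 2 / G x := by
    intro x
    have h1 := hdet x
    have h2 := hGpos x
    have : E x - M x ^ 2 / G x = (E x * G x - M x ^ 2) / G x := by field_simp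
    rw [this]; positivity
  have hE₁per : Function.Periodic (fun x => E x - M x ^ 2 / G x) a :=
    fun x => by simp only [hEper x, hMper x, hGper x]
  have hμ : ContDiff ℝ ∞ fun x => M x / G x := hM.div hG fun x => (hGpos x).ne'
  have hμper : Function.Periodic (fun x => M x / G x) a :=
    fun x => by simp only [hMper x, hGper x]
  obtain ⟨n, χ, s, t, z₁, z₂, hn0, hχ, hχper, hφlow, hφup, hRadpos, hfs, hgs⟩ :=
    exists_params a b (τ + prim (fun x => M x / G x) a) ha hb (fun x => E x - M x ^ 2 / G x) G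
      (deriv fun x => √(G x)) hE₁.continuous hG.continuous hρ'.continuous hE₁pos hGpos
      hE₁per hGper hρ'per
  have hnpos : (0 : ℝ) < n := by exact_mod_cast hn0
  have hκpos : 0 < 2 * π * n / b := by positivity
  have hχ' : ContDiff ℝ ∞ (deriv χ) := (contDiff_infty_iff_deriv.1 hχ).2
  have hχ'per := periodic_deriv hχper
  have hφ : ContDiff ℝ ∞ fun x => s + t * χ x := contDiff_const.add (contDiff_const.mul hχ)
  have hφper : Function.Periodic (fun x => s + t * χ x) a := fun x => by simp only [hχper x]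
  have hw : ContDiff ℝ ∞ fun x =>
      √(Rad (fun x => E x - M x ^ 2 / G x) G (deriv fun x => √(G x)) (deriv χ)
        (2 * π * n / b) t x) :=
    (Rad_contDiff hE₁ hG hρ' hχ' hGpos).sqrt fun x => (hRadpos x).ne'
  have hwper : Function.Periodic (fun x =>
      √(Rad (fun x => E x - M x ^ 2 / G x) G (deriv fun x => √(G x)) (deriv χ)
        (2 * π * n / b) t x)) a := fun x => by
    simp only [Rad_periodic hE₁per hGper hρ'per hχ'per x]
  have hS : ∀ x, 0 < sin (s + t * χ x) := fun x =>
    sin_pos_of_pos_of_lt_pi (hφlow x) (by have := hφup x; linarith)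
  have hC : ∀ x, 0 < cos (s + t * χ x) := fun x =>
    cos_pos_of_mem_Ioo ⟨by have := hφlow x; linarith, hφup x⟩
  have hAc : Continuous fun x =>
      √(Rad (fun x => E x - M x ^ 2 / G x) G (deriv fun x => √(G x)) (deriv χ)
        (2 * π * n / b) t x) * (cos (s + t * χ x) / sin (s + t * χ x)) :=
    hw.continuous.mul (hφ.cos.continuous.div hφ.sin.continuous fun x => (hS x).ne')
  have hBc : Continuous fun x =>
      √(Rad (fun x => E x - M x ^ 2 / G x) G (deriv fun x => √(G x)) (deriv χ)
        (2 * π * n / b) t x) * (sin (s + t * χ x) / cos (s + t * χ x)) :=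
    hw.continuous.mul (hφ.sin.continuous.div hφ.cos.continuous fun x => (hC x).ne')
  have hκΛ : 2 * π * n / b * (b / n) = 2 * π := by field_simp
  obtain ⟨F, hF, hF1, hF2, hF3⟩ := immersion_of_data a b τ (2 * π * n / b) hκpos n
    (by field_simp) (fun x => √(G x)) (fun x => M x / G x) (fun x => s + t * χ x)
    (fun x => √(Rad (fun x => E x - M x ^ 2 / G x) G (deriv fun x => √(G x)) (deriv χ)
        (2 * π * n / b) t x)) hρ hμ hφ hw hρper hμper hφper hwper hS hC z₁ (-z₂)
    (by
      have : prim (fun x => M x / G x + √(Rad (fun x => E x - M x ^ 2 / G x) G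
          (deriv fun x => √(G x)) (deriv χ) (2 * π * n / b) t x)
            * (cos (s + t * χ x) / sin (s + t * χ x))) a
          = prim (fun x => M x / G x) a + (-(τ + prim (fun x => M x / G x) a) + b / n * z₁) := by
        rw [← hfs]
        exact intervalIntegral.integral_add (hμ.continuous.intervalIntegrable _ _)
          (hAc.intervalIntegrable _ _)
      rw [this]; linear_combination (z₁ : ℝ) * hκΛ)
    (by
      have : prim (fun x => M x / G x - √(Rad (fun x => E x - M x ^ 2 / G x) G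
          (deriv fun x => √(G x)) (deriv χ) (2 * π * n / b) t x)
            * (sin (s + t * χ x) / cos (s + t * χ x))) a
          = prim (fun x => M x / G x) a - ((τ + prim (fun x => M x / G x) a) + b / n * z₂) := by
        rw [← hgs]
        exact intervalIntegral.integral_sub (hμ.continuous.intervalIntegrable _ _)
          (hBc.intervalIntegrable _ _)
      rw [this]; push_cast; linear_combination (-(z₂ : ℝ)) * hκΛ)
  refine ⟨F, hF, hF1, hF2, fun p v w => ?_⟩
  rw [hF3 p v w]
  have dχ : HasDerivAt χ (deriv χ p.1) p.1 :=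
    ((contDiff_infty_iff_deriv.1 hχ).1 p.1).hasDerivAt
  have dφ : deriv (fun x => s + t * χ x) p.1 = t * deriv χ p.1 :=
    ((dχ.const_mul t).const_add s).deriv
  have hG0 := (hGpos p.1).ne'
  rw [dφ, Real.sq_sqrt (hRadpos p.1).le, hρsq]
  have f1 : (deriv (fun x => √(G x)) p.1 ^ 2 + G p.1 * (t * deriv χ p.1) ^ 2)
        / (2 * π * n / b) ^ 2
      + G p.1 * ((M p.1 / G p.1) ^ 2 + Rad (fun x => E x - M x ^ 2 / G x) G
        (deriv fun x => √(G x)) (deriv χ) (2 * π * n / b) t p.1) = E p.1 := by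
    unfold Rad
    generalize deriv (fun x => √(G x)) p.1 = d
    generalize (2 * π * n / b) ^ 2 = K
    field_simp
    ring
  have f2 : G p.1 * (M p.1 / G p.1) = M p.1 := by field_simp
  rw [f1, f2]

end Vale.Agent.Lib.P205
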