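import Vale.Agent.Lib.P205.Pullback

/-! The two-factor map `(x, y) ↦ (ρ₁(x) e^{i(κ y + ψ₁(x))}, ρ₂(x) e^{i(κ y + ψ₂(x))})`. -/

open scoped ContDiff InnerProductSpace
open Real

namespace Vale.Agent.Lib.P205

/-- The map `(x, y) ↦ (ρ₁(x) e^{i(κ y + ψ₁(x))}, ρ₂(x) e^{i(κ y + ψ₂(x))})` into `ℝ⁴ = ℂ²`. -/
noncomputable def hopfMap (ρ₁ ρ₂ ψ₁ ψ₂ : ℝ → ℝ) (κ : ℝ) (p : ℝ × ℝ) : EuclideanSpace ℝ (Fin 4) :=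
  !₂[ρ₁ p.1 * cos (κ * p.2 + ψ₁ p.1), ρ₁ p.1 * sin (κ * p.2 + ψ₁ p.1),
    ρ₂ p.1 * cos (κ * p.2 + ψ₂ p.1), ρ₂ p.1 * sin (κ * p.2 + ψ₂ p.1)]

theorem hopfMap_contDiff {ρ₁ ρ₂ ψ₁ ψ₂ : ℝ → ℝ} {κ : ℝ} (h₁ : ContDiff ℝ ∞ ρ₁)
    (h₂ : ContDiff ℝ ∞ ρ₂) (k₁ : ContDiff ℝ ∞ ψ₁) (k₂ : ContDiff ℝ ∞ ψ₂) :
    ContDiff ℝ ∞ (hopfMap ρ₁ ρ₂ ψ₁ ψ₂ κ) := by
  rw [contDiff_euclidean]
  have a1 : ContDiff ℝ ∞ (fun q : ℝ × ℝ => ρ₁ q.1) := h₁.comp contDiff_fst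
  have a2 : ContDiff ℝ ∞ (fun q : ℝ × ℝ => ρ₂ q.1) := h₂.comp contDiff_fst
  have b1 : ContDiff ℝ ∞ (fun q : ℝ × ℝ => κ * q.2 + ψ₁ q.1) :=
    (contDiff_const.mul contDiff_snd).add (k₁.comp contDiff_fst)
  have b2 : ContDiff ℝ ∞ (fun q : ℝ × ℝ => κ * q.2 + ψ₂ q.1) :=
    (contDiff_const.mul contDiff_snd).add (k₂.comp contDiff_fst)
  intro i
  fin_cases i
  · exact a1.mul b1.cos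
  · exact a1.mul b1.sin
  · exact a2.mul b2.cos
  · exact a2.mul b2.sin

theorem hopfMap_pullback {ρ₁ ρ₂ ψ₁ ψ₂ : ℝ → ℝ} {κ : ℝ} {p : ℝ × ℝ} {r₁ r₂ q₁ q₂ : ℝ}
    (h₁ : HasDerivAt ρ₁ r₁ p.1) (h₂ : HasDerivAt ρ₂ r₂ p.1)
    (k₁ : HasDerivAt ψ₁ q₁ p.1) (k₂ : HasDerivAt ψ₂ q₂ p.1) (v w : ℝ × ℝ) :
    ⟪fderiv ℝ (hopfMap ρ₁ ρ₂ ψ₁ ψ₂ κ) p v, fderiv ℝ (hopfMap ρ₁ ρ₂ ψ₁ ψ₂ κ) p w⟫_ℝ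
      = (r₁ ^ 2 + r₂ ^ 2 + (ρ₁ p.1 * q₁) ^ 2 + (ρ₂ p.1 * q₂) ^ 2) * v.1 * w.1
        + (κ * ((ρ₁ p.1) ^ 2 * q₁ + (ρ₂ p.1) ^ 2 * q₂)) * (v.1 * w.2 + v.2 * w.1)
        + (κ ^ 2 * ((ρ₁ p.1) ^ 2 + (ρ₂ p.1) ^ 2)) * v.2 * w.2 := by
  have a1 : HasFDerivAt (fun q : ℝ × ℝ => ρ₁ q.1) (r₁ • ContinuousLinearMap.fst ℝ ℝ ℝ) p :=
    h₁.comp_hasFDerivAt p hasFDerivAt_fst
  have a2 : HasFDerivAt (fun q : ℝ × ℝ => ρ₂ q.1) (r₂ • ContinuousLinearMap.fst ℝ ℝ ℝ) p :=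
    h₂.comp_hasFDerivAt p hasFDerivAt_fst
  have b1' : HasFDerivAt (fun q : ℝ × ℝ => ψ₁ q.1) (q₁ • ContinuousLinearMap.fst ℝ ℝ ℝ) p :=
    k₁.comp_hasFDerivAt p hasFDerivAt_fst
  have b2' : HasFDerivAt (fun q : ℝ × ℝ => ψ₂ q.1) (q₂ • ContinuousLinearMap.fst ℝ ℝ ℝ) p :=
    k₂.comp_hasFDerivAt p hasFDerivAt_fst
  have b1 : HasFDerivAt (fun q : ℝ × ℝ => κ * q.2 + ψ₁ q.1)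
      (κ • ContinuousLinearMap.snd ℝ ℝ ℝ + q₁ • ContinuousLinearMap.fst ℝ ℝ ℝ) p :=
    (hasFDerivAt_snd.const_mul κ).add b1'
  have b2 : HasFDerivAt (fun q : ℝ × ℝ => κ * q.2 + ψ₂ q.1)
      (κ • ContinuousLinearMap.snd ℝ ℝ ℝ + q₂ • ContinuousLinearMap.fst ℝ ℝ ℝ) p :=
    (hasFDerivAt_snd.const_mul κ).add b2'
  have c0 := a1.mul b1.cos
  have c1 := a1.mul b1.sin
  have c2 := a2.mul b2.cos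
  have c3 := a2.mul b2.sin
  rw [inner_fderiv_of_components (F := hopfMap ρ₁ ρ₂ ψ₁ ψ₂ κ) (p := p)
    (L := ![_, _, _, _]) (fun i => by
      fin_cases i
      · exact c0
      · exact c1
      · exact c2
      · exact c3) v w]
  simp only [Fin.sum_univ_four]
  simp
  have hs := sin_sq_add_cos_sq (κ * p.2 + ψ₁ p.1)
  have hs' := sin_sq_add_cos_sq (κ * p.2 + ψ₂ p.1)
  linear_combination ((ρ₁ p.1) ^ 2 * (κ * v.2 + q₁ * v.1) * (κ * w.2 + q₁ * w.1)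
    + r₁ ^ 2 * v.1 * w.1) * hs + ((ρ₂ p.1) ^ 2 * (κ * v.2 + q₂ * v.1) * (κ * w.2 + q₂ * w.1)
    + r₂ ^ 2 * v.1 * w.1) * hs'

end Vale.Agent.Lib.P205
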