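import Vale.Agent.Lib.P205.Twist.Helpers
import Vale.Agent.Lib.P205.Twist.Hopf

/-! From the data `(ρ, μ, φ, w, κ)` to the immersion. -/

open scoped ContDiff InnerProductSpace
open Real

namespace Vale.Agent.Lib.P205

theorem immersion_of_data (a b τ κ : ℝ) (hκ : 0 < κ) (n : ℕ) (hκb : κ * b = (n : ℝ) * (2 * π))
    (ρ μ φ w : ℝ → ℝ) (hρ : ContDiff ℝ ∞ ρ) (hμ : ContDiff ℝ ∞ μ) (hφ : ContDiff ℝ ∞ φ)
    (hw : ContDiff ℝ ∞ w) (hρper : Function.Periodic ρ a) (hμper : Function.Periodic μ a)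
    (hφper : Function.Periodic φ a) (hwper : Function.Periodic w a)
    (hS : ∀ x, 0 < sin (φ x)) (hC : ∀ x, 0 < cos (φ x)) (z₁ z₂ : ℤ)
    (h1 : κ * (τ + prim (fun x => μ x + w x * (cos (φ x) / sin (φ x))) a) = (z₁ : ℝ) * (2 * π))
    (h2 : κ * (τ + prim (fun x => μ x - w x * (sin (φ x) / cos (φ x))) a) = (z₂ : ℝ) * (2 * π)) :
    ∃ F : ℝ × ℝ → EuclideanSpace ℝ (Fin 4), ContDiff ℝ ∞ F ∧
      (∀ p : ℝ × ℝ, F (p.1 + a, p.2 + τ) = F p) ∧ (∀ p : ℝ × ℝ, F (p.1, p.2 + b) = F p) ∧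
      ∀ (p v u : ℝ × ℝ), ⟪fderiv ℝ F p v, fderiv ℝ F p u⟫_ℝ
        = ((deriv ρ p.1 ^ 2 + ρ p.1 ^ 2 * (deriv φ p.1) ^ 2) / κ ^ 2
            + ρ p.1 ^ 2 * (μ p.1 ^ 2 + w p.1 ^ 2)) * v.1 * u.1
          + (ρ p.1 ^ 2 * μ p.1) * (v.1 * u.2 + v.2 * u.1) + ρ p.1 ^ 2 * v.2 * u.2 := by
  have hsinφ : ContDiff ℝ ∞ fun x => sin (φ x) := hφ.sin
  have hcosφ : ContDiff ℝ ∞ fun x => cos (φ x) := hφ.cos
  have hμA : ContDiff ℝ ∞ fun x => μ x + w x * (cos (φ x) / sin (φ x)) :=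
    hμ.add (hw.mul (hcosφ.div hsinφ fun x => (hS x).ne'))
  have hμB : ContDiff ℝ ∞ fun x => μ x - w x * (sin (φ x) / cos (φ x)) :=
    hμ.sub (hw.mul (hsinφ.div hcosφ fun x => (hC x).ne'))
  have hμAper : Function.Periodic (fun x => μ x + w x * (cos (φ x) / sin (φ x))) a :=
    fun x => by simp only [hμper x, hwper x, hφper x]
  have hμBper : Function.Periodic (fun x => μ x - w x * (sin (φ x) / cos (φ x))) a :=
    fun x => by simp only [hμper x, hwper x, hφper x]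
  refine ⟨hopfMap (fun x => ρ x * sin (φ x) / κ) (fun x => ρ x * cos (φ x) / κ)
    (fun x => κ * prim (fun x => μ x + w x * (cos (φ x) / sin (φ x))) x)
    (fun x => κ * prim (fun x => μ x - w x * (sin (φ x) / cos (φ x))) x) κ,
    hopfMap_contDiff ((hρ.mul hsinφ).div_const κ) ((hρ.mul hcosφ).div_const κ)
      (contDiff_const.mul (prim_contDiff hμA)) (contDiff_const.mul (prim_contDiff hμB)), ?_, ?_, ?_⟩
  · intro p
    have e1 : κ * (p.2 + τ) + κ * prim (fun x => μ x + w x * (cos (φ x) / sin (φ x))) (p.1 + a)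
        = (κ * p.2 + κ * prim (fun x => μ x + w x * (cos (φ x) / sin (φ x))) p.1)
          + (z₁ : ℝ) * (2 * π) := by
      rw [prim_add_period hμA.continuous hμAper, ← h1]; ring
    have e2 : κ * (p.2 + τ) + κ * prim (fun x => μ x - w x * (sin (φ x) / cos (φ x))) (p.1 + a)
        = (κ * p.2 + κ * prim (fun x => μ x - w x * (sin (φ x) / cos (φ x))) p.1)
          + (z₂ : ℝ) * (2 * π) := by
      rw [prim_add_period hμB.continuous hμBper, ← h2]; ring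
    simp only [hopfMap]
    rw [e1, e2, hρper, hφper, Real.cos_add_int_mul_two_pi, Real.sin_add_int_mul_two_pi,
      Real.cos_add_int_mul_two_pi, Real.sin_add_int_mul_two_pi]
  · intro p
    have e1 : ∀ c : ℝ, κ * (p.2 + b) + c = (κ * p.2 + c) + (n : ℝ) * (2 * π) := by
      intro c; rw [← hκb]; ring
    simp only [hopfMap]
    rw [e1, e1, Real.cos_add_nat_mul_two_pi, Real.sin_add_nat_mul_two_pi,
      Real.cos_add_nat_mul_two_pi, Real.sin_add_nat_mul_two_pi]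
  · intro p v u
    have dρ : HasDerivAt ρ (deriv ρ p.1) p.1 :=
      ((contDiff_infty_iff_deriv.1 hρ).1 p.1).hasDerivAt
    have dφ : HasDerivAt φ (deriv φ p.1) p.1 :=
      ((contDiff_infty_iff_deriv.1 hφ).1 p.1).hasDerivAt
    have d1 : HasDerivAt (fun x => ρ x * sin (φ x) / κ)
        ((deriv ρ p.1 * sin (φ p.1) + ρ p.1 * (cos (φ p.1) * deriv φ p.1)) / κ) p.1 :=
      (dρ.mul dφ.sin).div_const κ
    have d2 : HasDerivAt (fun x => ρ x * cos (φ x) / κ)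
        ((deriv ρ p.1 * cos (φ p.1) + ρ p.1 * (-sin (φ p.1) * deriv φ p.1)) / κ) p.1 :=
      (dρ.mul dφ.cos).div_const κ
    have d3 := (prim_hasDerivAt hμA.continuous p.1).const_mul κ
    have d4 := (prim_hasDerivAt hμB.continuous p.1).const_mul κ
    rw [hopfMap_pullback d1 d2 d3 d4 v u]
    have hSC := sin_sq_add_cos_sq (φ p.1)
    rw [metric_algebra hSC (hS p.1).ne' (hC p.1).ne' hκ.ne',
      cross_algebra hSC (hS p.1).ne' (hC p.1).ne' hκ.ne', last_algebra hSC hκ.ne']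

end Vale.Agent.Lib.P205
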