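import Vale.Agent.Lib.P205.Main

/-! Small auxiliary lemmas for the twisted torus theorem. -/

namespace Vale.Agent.Lib.P205

open Real

theorem lattice_point (Λ c u : ℝ) (hΛ : 0 < Λ) : ∃ z : ℤ, u < c + Λ * z ∧ c + Λ * z ≤ u + Λ := by
  refine ⟨⌊(u - c) / Λ⌋ + 1, ?_, ?_⟩
  · have h := Int.lt_floor_add_one ((u - c) / Λ)
    rw [div_lt_iff₀ hΛ] at h
    push_cast
    nlinarith
  · have h := Int.floor_le ((u - c) / Λ)
    rw [le_div_iff₀ hΛ] at h
    push_cast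
    nlinarith

theorem exists_pos_lower_bound {q : ℝ → ℝ} {a : ℝ} (ha : a ≠ 0) (hq : Continuous q)
    (hp : Function.Periodic q a) (hpos : ∀ x, 0 < q x) : ∃ m : ℝ, 0 < m ∧ ∀ x, m ≤ q x := by
  obtain ⟨C, hC⟩ := exists_bound (q := fun x => 1 / q x) ha
    (continuous_const.div hq fun x => (hpos x).ne') (fun x => by simp [hp x])
  have hCpos : 0 < C := lt_of_lt_of_le (by have := hpos 0; positivity) (hC 0)
  refine ⟨1 / C, by positivity, fun x => ?_⟩
  have h := hC x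
  rw [div_le_iff₀ (hpos x)] at h
  rw [div_le_iff₀ hCpos]
  linarith

/-- the algebra behind the `dx²` coefficient -/
theorem metric_algebra {S C r r' w m f κ : ℝ} (hSC : S ^ 2 + C ^ 2 = 1) (hS : S ≠ 0) (hC : C ≠ 0)
    (hκ : κ ≠ 0) :
    ((r' * S + r * (C * f)) / κ) ^ 2 + ((r' * C + r * (-S * f)) / κ) ^ 2
      + (r * S / κ * (κ * (m + w * (C / S)))) ^ 2 + (r * C / κ * (κ * (m - w * (S / C)))) ^ 2
      = (r' ^ 2 + r ^ 2 * f ^ 2) / κ ^ 2 + r ^ 2 * (m ^ 2 + w ^ 2) := by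
  have e1 : r * S / κ * (κ * (m + w * (C / S))) = r * (S * m + w * C) := by field_simp
  have e2 : r * C / κ * (κ * (m - w * (S / C))) = r * (C * m - w * S) := by field_simp
  rw [e1, e2, div_pow, div_pow, ← add_div]
  have e3 : (r' * S + r * (C * f)) ^ 2 + (r' * C + r * (-S * f)) ^ 2 = r' ^ 2 + r ^ 2 * f ^ 2 := by
    linear_combination (r' ^ 2 + r ^ 2 * f ^ 2) * hSC
  rw [e3]
  linear_combination (r ^ 2 * (m ^ 2 + w ^ 2)) * hSC

/-- the algebra behind the `dx dy` coefficient -/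
theorem cross_algebra {S C r w m κ : ℝ} (hSC : S ^ 2 + C ^ 2 = 1) (hS : S ≠ 0) (hC : C ≠ 0)
    (hκ : κ ≠ 0) :
    κ * ((r * S / κ) ^ 2 * (κ * (m + w * (C / S))) + (r * C / κ) ^ 2 * (κ * (m - w * (S / C))))
      = r ^ 2 * m := by
  field_simp
  linear_combination (r ^ 2 * m) * hSC

/-- the algebra behind the `dy²` coefficient -/
theorem last_algebra {S C r κ : ℝ} (hSC : S ^ 2 + C ^ 2 = 1) (hκ : κ ≠ 0) :
    κ ^ 2 * ((r * S / κ) ^ 2 + (r * C / κ) ^ 2) = r ^ 2 := by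
  field_simp
  linear_combination (r ^ 2) * hSC

end Vale.Agent.Lib.P205
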