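import Mathlib

/-! Definitions of the two parametric integrals. -/

namespace Vale.Agent.Lib.P205

open Real

/-- `∫₀ᵃ W_t cot (s + t χ)` -/
noncomputable def fInt (a : ℝ) (χ : ℝ → ℝ) (W : ℝ → ℝ → ℝ) (s t : ℝ) : ℝ :=
  ∫ x in (0 : ℝ)..a, W t x * (cos (s + t * χ x) / sin (s + t * χ x))

/-- `∫₀ᵃ W_t tan (s + t χ)` -/
noncomputable def gInt (a : ℝ) (χ : ℝ → ℝ) (W : ℝ → ℝ → ℝ) (s t : ℝ) : ℝ :=
  ∫ x in (0 : ℝ)..a, W t x * (sin (s + t * χ x) / cos (s + t * χ x))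

end Vale.Agent.Lib.P205
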