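import Mathlib

/-! T2: a two-dimensional intermediate value theorem by nesting (no measure theory).
ROUTE: for each t in [0,t1] the function s -> f s t is continuous and strictly decreasing on
[s0,s1] with f s0 t > alpha > f s1 t, so it has a unique root sigma t in (s0,s1)
(intermediate_value_Icc').  sigma is continuous on [0,t1]: given eps, at t* we have
f (sigma t* - eps) t* > alpha > f (sigma t* + eps) t* (clamp to [s0,s1]); by continuity of f in t
the same strict inequalities hold for t near t*, hence by monotonicity |sigma t - sigma t*| < eps.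
(Alternative: compactness + uniqueness of the root.)  Then h t = g (sigma t) t is continuous on
[0,t1], h 0 < beta < h t1, and intermediate_value_Icc gives t. -/

namespace Vale.Agent.Lib.P205

theorem nested_ivt {f g : ℝ → ℝ → ℝ} {s0 s1 t1 α β : ℝ} (hs : s0 < s1) (ht : 0 < t1)
    (hf : ContinuousOn (Function.uncurry f) (Set.Icc s0 s1 ×ˢ Set.Icc 0 t1))
    (hg : ContinuousOn (Function.uncurry g) (Set.Icc s0 s1 ×ˢ Set.Icc 0 t1))
    (hmono : ∀ t ∈ Set.Icc 0 t1, StrictAntiOn (fun s => f s t) (Set.Icc s0 s1))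
    (hl : ∀ t ∈ Set.Icc 0 t1, α < f s0 t) (hr : ∀ t ∈ Set.Icc 0 t1, f s1 t < α)
    (h0 : ∀ s ∈ Set.Icc s0 s1, f s 0 = α → g s 0 < β)
    (h1 : ∀ s ∈ Set.Icc s0 s1, f s t1 = α → β < g s t1) :
    ∃ s ∈ Set.Icc s0 s1, ∃ t ∈ Set.Icc 0 t1, f s t = α ∧ g s t = β := by
  have hfs : ∀ t ∈ Set.Icc 0 t1, ContinuousOn (fun s => f s t) (Set.Icc s0 s1) := by
    intro t ht'
    have hc : ContinuousOn (fun s : ℝ => (s, t)) (Set.Icc s0 s1) := by fun_prop
    exact hf.comp hc (fun s hs' => ⟨hs', ht'⟩)
  have hft : ∀ s ∈ Set.Icc s0 s1, ContinuousOn (fun t => f s t) (Set.Icc 0 t1) := by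
    intro s hs'
    have hc : ContinuousOn (fun t : ℝ => (s, t)) (Set.Icc 0 t1) := by fun_prop
    exact hf.comp hc (fun t ht' => ⟨hs', ht'⟩)
  have hex : ∀ t ∈ Set.Icc 0 t1, ∃ s ∈ Set.Icc s0 s1, f s t = α := by
    intro t ht'
    obtain ⟨s, hs', hsα⟩ :=
      intermediate_value_Icc' hs.le (hfs t ht') ⟨(hr t ht').le, (hl t ht').le⟩
    exact ⟨s, hs', hsα⟩
  choose! σ hσmem hσ using hex
  have hσcont : ContinuousOn σ (Set.Icc 0 t1) := by
    intro t0 ht0
    refine tendsto_order.2 ⟨fun a ha => ?_, fun b hb => ?_⟩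
    · by_cases has : a < s0
      · filter_upwards [self_mem_nhdsWithin] with t ht'
        exact lt_of_lt_of_le has (hσmem t ht').1
      · push Not at has
        have haI : a ∈ Set.Icc s0 s1 := ⟨has, ha.le.trans (hσmem t0 ht0).2⟩
        have h1' : α < f a t0 := by
          have h2 := hmono t0 ht0 haI (hσmem t0 ht0) ha
          simp only at h2
          rw [hσ t0 ht0] at h2
          exact h2
        have hev : ∀ᶠ t in nhdsWithin t0 (Set.Icc 0 t1), α < f a t :=
          (hft a haI t0 ht0).eventually (lt_mem_nhds h1')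
        filter_upwards [hev, self_mem_nhdsWithin] with t htα ht'
        by_contra hcon
        push Not at hcon
        have h2 := (hmono t ht').antitoneOn (hσmem t ht') haI hcon
        rw [hσ t ht'] at h2
        linarith
    · by_cases hbs : s1 < b
      · filter_upwards [self_mem_nhdsWithin] with t ht'
        exact lt_of_le_of_lt (hσmem t ht').2 hbs
      · push Not at hbs
        have hbI : b ∈ Set.Icc s0 s1 := ⟨(hσmem t0 ht0).1.trans hb.le, hbs⟩
        have h1' : f b t0 < α := by
          have h2 := hmono t0 ht0 (hσmem t0 ht0) hbI hb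
          simp only at h2
          rw [hσ t0 ht0] at h2
          exact h2
        have hev : ∀ᶠ t in nhdsWithin t0 (Set.Icc 0 t1), f b t < α :=
          (hft b hbI t0 ht0).eventually (gt_mem_nhds h1')
        filter_upwards [hev, self_mem_nhdsWithin] with t htα ht'
        by_contra hcon
        push Not at hcon
        have h2 := (hmono t ht').antitoneOn hbI (hσmem t ht') hcon
        rw [hσ t ht'] at h2
        linarith
  have hh : ContinuousOn (fun t => g (σ t) t) (Set.Icc 0 t1) := by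
    have hc : ContinuousOn (fun t : ℝ => (σ t, t)) (Set.Icc 0 t1) :=
      hσcont.prodMk continuousOn_id
    exact hg.comp hc (fun t ht' => ⟨hσmem t ht', ht'⟩)
  have h00 : (0 : ℝ) ∈ Set.Icc 0 t1 := ⟨le_rfl, ht.le⟩
  have h11 : t1 ∈ Set.Icc 0 t1 := ⟨ht.le, le_rfl⟩
  have hb : β ∈ Set.Icc (g (σ 0) 0) (g (σ t1) t1) :=
    ⟨(h0 _ (hσmem 0 h00) (hσ 0 h00)).le, (h1 _ (hσmem t1 h11) (hσ t1 h11)).le⟩
  obtain ⟨t, ht', htβ⟩ := intermediate_value_Icc ht.le hh hb
  exact ⟨σ t, hσmem t ht', t, ht', hσ t ht', htβ⟩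

end Vale.Agent.Lib.P205
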